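import Mathlib

namespace Vale.Agent.Lib.P061

open Finset

/-- A finite loopless multigraph: `E` is the type of edge copies, `ends e` the unordered pair of
endpoints of the copy `e`. Parallel copies are distinct elements of `E`. -/
structure Multigraph (V E : Type) where
  ends : E → Sym2 V
  loopless : ∀ e, ¬ (ends e).IsDiag

variable {V E : Type}

/-- The edge copy `e` has exactly one endpoint in `S`. -/
def Multigraph.Crosses (G : Multigraph V E) (S : Finset V) (e : E) : Prop :=
  ∃ u v, G.ends e = s(u, v) ∧ u ∈ S ∧ v ∉ S

open scoped Classical in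
/-- The number of edge copies of `F` with exactly one endpoint in `S`. -/
noncomputable def Multigraph.cutCard (G : Multigraph V E) (F : Finset E) (S : Finset V) : ℕ :=
  (F.filter (fun e => G.Crosses S e)).card

/-- `k`-edge-connected: every nonempty proper vertex set is left by at least `k` edge copies. -/
def Multigraph.EdgeConnected [Fintype V] [Fintype E] (G : Multigraph V E) (k : ℕ) : Prop :=
  ∀ S : Finset V, S.Nonempty → S ≠ Finset.univ → k ≤ G.cutCard Finset.univ S

/-- The simple graph on `V` whose edges are the endpoint pairs of the copies in `T`. -/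
def Multigraph.graphOf (G : Multigraph V E) (T : Finset E) : SimpleGraph V :=
  SimpleGraph.fromEdgeSet {p | ∃ e ∈ T, G.ends e = p}

/-- `T` is a set of `|V| - 1` edge copies forming a tree on `V`. -/
def Multigraph.IsSpanningTree [Fintype V] (G : Multigraph V E) (T : Finset E) : Prop :=
  (G.graphOf T).IsTree ∧ T.card + 1 = Fintype.card V

/-- `T` is `α`-thin: it contains at most an `α` fraction of every cut. -/
def Multigraph.IsThin [Fintype V] [Fintype E] (G : Multigraph V E) (T : Finset E) (α : ℝ) : Prop :=
  ∀ S : Finset V, S.Nonempty → S ≠ Finset.univ →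
    (G.cutCard T S : ℝ) ≤ α * (G.cutCard Finset.univ S : ℝ)

/-- `F` meets every cut. -/
def Multigraph.Conn [Fintype V] (G : Multigraph V E) (F : Finset E) : Prop :=
  ∀ S : Finset V, S.Nonempty → S ≠ Finset.univ → ∃ e ∈ F, G.Crosses S e

theorem Multigraph.crosses_compl [Fintype V] [DecidableEq V] (G : Multigraph V E) (S : Finset V)
    (e : E) : G.Crosses Sᶜ e ↔ G.Crosses S e := by
  constructor
  · rintro ⟨u, v, h, hu, hv⟩
    refine ⟨v, u, by rw [h, Sym2.eq_swap], ?_, ?_⟩
    · simpa using hv
    · simpa using hu
  · rintro ⟨u, v, h, hu, hv⟩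
    refine ⟨v, u, by rw [h, Sym2.eq_swap], ?_, ?_⟩
    · simpa using hv
    · simpa using hu

theorem Multigraph.cutCard_mono (G : Multigraph V E) {F F' : Finset E} (h : F ⊆ F')
    (S : Finset V) : G.cutCard F S ≤ G.cutCard F' S := by
  classical
  unfold Multigraph.cutCard
  exact Finset.card_le_card (Finset.filter_subset_filter _ h)

theorem Multigraph.cutCard_union_le [DecidableEq E] (G : Multigraph V E) (F F' : Finset E)
    (S : Finset V) : G.cutCard (F ∪ F') S ≤ G.cutCard F S + G.cutCard F' S := by
  classical
  unfold Multigraph.cutCard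
  rw [Finset.filter_union]
  exact Finset.card_union_le _ _

theorem Multigraph.cutCard_le_card (G : Multigraph V E) (F : Finset E) (S : Finset V) :
    G.cutCard F S ≤ F.card := by
  classical
  unfold Multigraph.cutCard
  exact Finset.card_filter_le _ _

theorem Multigraph.cutCard_add_sdiff [Fintype E] [DecidableEq E] (G : Multigraph V E)
    (T : Finset E) (S : Finset V) :
    G.cutCard T S + G.cutCard (Finset.univ \ T) S = G.cutCard Finset.univ S := by
  classical
  unfold Multigraph.cutCard
  rw [← Finset.card_union_of_disjoint, ← Finset.filter_union]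
  · congr 2
    ext e
    simp
  · apply Finset.disjoint_filter_filter
    exact Finset.disjoint_sdiff

/-- A set of edge copies meeting every cut spans a connected graph. -/
theorem Multigraph.connected_of_conn [Fintype V] [Nonempty V] (G : Multigraph V E) (F : Finset E)
    (h : G.Conn F) : (G.graphOf F).Connected := by
  classical
  refine ⟨fun u v => ?_⟩
  let S : Finset V := Finset.univ.filter (fun x => (G.graphOf F).Reachable u x)
  have hu : u ∈ S := by simp [S]
  by_cases hS : S = Finset.univ
  · have : v ∈ S := hS ▸ Finset.mem_univ v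
    simpa [S] using this
  · obtain ⟨e, he, x, y, hxy, hx, hy⟩ := h S ⟨u, hu⟩ hS
    exfalso
    apply hy
    have hx' : (G.graphOf F).Reachable u x := by simpa [S] using hx
    have hne : x ≠ y := fun hh => hy (hh ▸ hx)
    have hadj : (G.graphOf F).Adj x y := by
      rw [Multigraph.graphOf, SimpleGraph.fromEdgeSet_adj]
      exact ⟨⟨e, he, hxy⟩, hne⟩
    simpa [S] using hx'.trans hadj.reachable

theorem Multigraph.card_le_of_conn [Fintype V] [Nonempty V] (G : Multigraph V E) (F : Finset E)
    (h : G.Conn F) : Fintype.card V ≤ F.card + 1 := by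
  classical
  have hc := (G.connected_of_conn F h).card_vert_le_card_edgeSet_add_one
  rw [Nat.card_eq_fintype_card] at hc
  refine hc.trans (Nat.add_le_add_right ?_ 1)
  have hsub : (G.graphOf F).edgeSet ⊆ ((F.image G.ends : Finset (Sym2 V)) : Set (Sym2 V)) := by
    intro p hp
    rw [Multigraph.graphOf, SimpleGraph.edgeSet_fromEdgeSet] at hp
    obtain ⟨e, he, rfl⟩ := hp.1
    simp only [Finset.coe_image, Set.mem_image, Finset.mem_coe]
    exact ⟨e, he, rfl⟩
  calc Nat.card (G.graphOf F).edgeSet ≤ Nat.card ((F.image G.ends : Finset (Sym2 V)) : Set (Sym2 V)) :=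
        Nat.card_mono (Finset.finite_toSet _) hsub
    _ = (F.image G.ends).card := by simp
    _ ≤ F.card := Finset.card_image_le

end Vale.Agent.Lib.P061
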