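import Vale.Agent.Lib.P061.Basic

namespace Vale.Agent.Lib.P061

open Finset

variable {V E : Type}

/-- The strong thin tree statement with constant `C`. -/
def StrongThinTree (C : ℝ) : Prop :=
  ∀ k : ℕ, 1 ≤ k → ∀ (V E : Type) [Fintype V] [Fintype E] (G : Multigraph V E),
    2 ≤ Fintype.card V → G.EdgeConnected k →
      ∃ T : Finset E, G.IsSpanningTree T ∧ G.IsThin T (C / k)

/-- The complete graph on `Fin n` seen as a multigraph (one copy for each pair). -/
def complete (n : ℕ) : Multigraph (Fin n) {p : Sym2 (Fin n) // ¬ p.IsDiag} where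
  ends := Subtype.val
  loopless := fun e => e.2

/-- A spanning tree has a cut crossed by all of its edges. -/
theorem exists_cut_all_cross [Fintype V] (G : Multigraph V E) (T : Finset E) (hT : G.IsSpanningTree T)
    (hV : 2 ≤ Fintype.card V) :
    ∃ S : Finset V, S.Nonempty ∧ S ≠ Finset.univ ∧ G.cutCard T S = T.card := by
  classical
  obtain ⟨c⟩ := hT.1.colorable_two
  let S : Finset V := Finset.univ.filter (fun v => c v = 0)
  have hcross : ∀ e ∈ T, G.Crosses S e := by
    intro e he
    induction hp : G.ends e using Sym2.ind with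
    | _ u v =>
      have hne : u ≠ v := by
        intro h
        apply G.loopless e
        rw [hp, h]
        exact Sym2.mk_isDiag_iff.mpr rfl
      have hadj : (G.graphOf T).Adj u v := by
        rw [Multigraph.graphOf, SimpleGraph.fromEdgeSet_adj]
        exact ⟨⟨e, he, hp⟩, hne⟩
      have hc : c u ≠ c v := c.valid hadj
      by_cases hu : c u = 0
      · refine ⟨u, v, hp, by simp [S, hu], ?_⟩
        simp only [S, Finset.mem_filter, Finset.mem_univ, true_and]
        intro hv
        exact hc (hu.trans hv.symm)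
      · refine ⟨v, u, by rw [hp, Sym2.eq_swap], ?_, by simp [S, hu]⟩
        simp only [S, Finset.mem_filter, Finset.mem_univ, true_and]
        have h1 : c u = 1 := by omega
        have : c v ≠ 1 := fun h => hc (h1.trans h.symm)
        omega
  have hTne : T.Nonempty := by
    rw [← Finset.card_pos]
    have := hT.2
    omega
  obtain ⟨e, he⟩ := hTne
  obtain ⟨u, v, -, hu, hv⟩ := hcross e he
  refine ⟨S, ⟨u, hu⟩, ?_, ?_⟩
  · intro h
    exact hv (h ▸ Finset.mem_univ v)
  · unfold Multigraph.cutCard
    congr 1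
    apply Finset.filter_true_of_mem
    exact hcross

/-- Max-cut obstruction: thinness of any spanning tree is at least `(|V|-1)` over any upper bound
for the cuts of `G`. -/
theorem thin_lower_bound [Fintype V] [Fintype E] (G : Multigraph V E) (T : Finset E) (hT : G.IsSpanningTree T)
    (hV : 2 ≤ Fintype.card V) (α : ℝ) (hα : G.IsThin T α) :
    ∃ S : Finset V, S.Nonempty ∧ S ≠ Finset.univ ∧
      ((Fintype.card V : ℝ) - 1) ≤ α * (G.cutCard Finset.univ S : ℝ) := by
  obtain ⟨S, h1, h2, h3⟩ := exists_cut_all_cross G T hT hV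
  refine ⟨S, h1, h2, ?_⟩
  have := hα S h1 h2
  rw [h3] at this
  have h4 : (T.card : ℝ) + 1 = (Fintype.card V : ℝ) := by exact_mod_cast hT.2
  linarith

theorem complete_cut_le (n : ℕ) (S : Finset (Fin n)) :
    4 * (complete n).cutCard Finset.univ S ≤ n ^ 2 := by
  classical
  have h1 : (complete n).cutCard Finset.univ S ≤ (S ×ˢ Sᶜ).card := by
    unfold Multigraph.cutCard
    rw [← Finset.card_image_of_injective _ Subtype.val_injective]
    refine le_trans (Finset.card_le_card ?_)
      (Finset.card_image_le (s := S ×ˢ Sᶜ) (f := fun p : Fin n × Fin n => s(p.1, p.2)))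
    intro p hp
    simp only [Finset.mem_image, Finset.mem_filter, Finset.mem_univ, true_and] at hp
    obtain ⟨e, ⟨u, v, he, hu, hv⟩, rfl⟩ := hp
    simp only [Finset.mem_image, Finset.mem_product, Finset.mem_compl]
    exact ⟨(u, v), ⟨hu, hv⟩, he.symm⟩
  have h2 : (S ×ˢ Sᶜ).card = S.card * (n - S.card) := by
    rw [Finset.card_product, Finset.card_compl, Fintype.card_fin]
  have h3 : S.card ≤ n := by
    simpa using Finset.card_le_univ S
  obtain ⟨b, hb⟩ := Nat.exists_eq_add_of_le h3
  have h4 : n - S.card = b := by omega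
  rw [h2, h4] at h1
  have h5 : 4 * (S.card * b) ≤ (S.card + b) ^ 2 := by
    nlinarith [sq_nonneg ((S.card : ℤ) - b), sq_nonneg (S.card + b), Nat.zero_le (S.card * b),
      (by
        rcases le_total S.card b with h | h
        · obtain ⟨c, rfl⟩ := Nat.exists_eq_add_of_le h
          nlinarith [Nat.zero_le (c * c)]
        · obtain ⟨c, hc⟩ := Nat.exists_eq_add_of_le h
          rw [hc]
          nlinarith [Nat.zero_le (c * c)] : 4 * (S.card * b) ≤ (S.card + b) ^ 2)]
  have h6 : n ^ 2 = (S.card + b) ^ 2 := by rw [← hb]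
  omega

theorem complete_edgeConnected (k : ℕ) : (complete (k + 1)).EdgeConnected k := by
  classical
  intro S hne hS
  obtain ⟨u, hu⟩ := hne
  obtain ⟨v, hv⟩ : ∃ v, v ∉ S := by
    by_contra h
    push Not at h
    exact hS (Finset.eq_univ_iff_forall.mpr h)
  unfold Multigraph.cutCard
  rw [← Finset.card_image_of_injective _ Subtype.val_injective]
  let g : Fin (k + 1) → Sym2 (Fin (k + 1)) := fun w => if w ∈ S then s(w, v) else s(u, w)
  have hinj : Set.InjOn g ((Finset.univ.erase u : Finset (Fin (k + 1))) : Set (Fin (k + 1))) := by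
    intro w hw w' hw' h
    simp only [Finset.coe_erase, Finset.coe_univ, Set.mem_sdiff, Set.mem_univ, true_and,
      Set.mem_singleton_iff] at hw hw'
    simp only [g] at h
    by_cases h1 : w ∈ S <;> by_cases h2 : w' ∈ S
    · simp only [h1, h2, if_true] at h
      rcases Sym2.eq_iff.mp h with ⟨a, -⟩ | ⟨a, b⟩
      · exact a
      · exact absurd (a ▸ h1) hv
    · simp only [h1, h2, if_true, if_false] at h
      rcases Sym2.eq_iff.mp h with ⟨a, -⟩ | ⟨a, b⟩
      · exact absurd a hw
      · exact a
    · simp only [h1, h2, if_true, if_false] at h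
      rcases Sym2.eq_iff.mp h with ⟨a, -⟩ | ⟨a, b⟩
      · exact absurd a.symm hw'
      · exact b
    · simp only [h1, h2, if_false] at h
      rcases Sym2.eq_iff.mp h with ⟨-, a⟩ | ⟨a, b⟩
      · exact a
      · exact absurd (a ▸ hu) h2
  have hcard : ((Finset.univ.erase u : Finset (Fin (k + 1))).image g).card = k := by
    rw [Finset.card_image_of_injOn hinj, Finset.card_erase_of_mem (Finset.mem_univ u)]
    simp
  refine hcard.symm.le.trans ?_
  apply Finset.card_le_card
  intro p hp
  simp only [Finset.mem_image, Finset.mem_erase, Finset.mem_univ, and_true] at hp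
  obtain ⟨w, hw, rfl⟩ := hp
  simp only [Finset.mem_image, Finset.mem_filter, Finset.mem_univ, true_and]
  by_cases h1 : w ∈ S
  · have hne : w ≠ v := fun h => hv (h ▸ h1)
    refine ⟨⟨s(w, v), by simpa using hne⟩, ⟨w, v, rfl, h1, hv⟩, ?_⟩
    simp [g, h1]
  · have hne : u ≠ w := fun h => h1 (h ▸ hu)
    refine ⟨⟨s(u, w), by simpa using hne⟩, ⟨u, w, rfl, hu, h1⟩, ?_⟩
    simp [g, h1]

/-- In the complete graph on `k+1` vertices every thin spanning tree has thinness at least
`4k/(k+1)^2`. -/
theorem complete_thin_bound (k : ℕ) (hk : 1 ≤ k) (T : Finset {p : Sym2 (Fin (k + 1)) // ¬ p.IsDiag})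
    (hT : (complete (k + 1)).IsSpanningTree T) (α : ℝ) (hα : (complete (k + 1)).IsThin T α) :
    4 * (k : ℝ) / ((k : ℝ) + 1) ^ 2 ≤ α := by
  have hV : 2 ≤ Fintype.card (Fin (k + 1)) := by simp; omega
  obtain ⟨S, -, -, h⟩ := thin_lower_bound (complete (k + 1)) T hT hV α hα
  have hc := complete_cut_le (k + 1) S
  have hc' : 4 * ((complete (k + 1)).cutCard Finset.univ S : ℝ) ≤ ((k : ℝ) + 1) ^ 2 := by
    exact_mod_cast hc
  simp only [Fintype.card_fin, Nat.cast_add, Nat.cast_one, add_sub_cancel_right] at h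
  have hkpos : (0 : ℝ) < k := by exact_mod_cast hk
  have hαpos : 0 ≤ α := by
    by_contra hneg
    push Not at hneg
    have : α * ((complete (k + 1)).cutCard Finset.univ S : ℝ) ≤ 0 :=
      mul_nonpos_of_nonpos_of_nonneg hneg.le (Nat.cast_nonneg _)
    linarith
  rw [div_le_iff₀ (by positivity)]
  nlinarith [mul_le_mul_of_nonneg_left hc' hαpos]

theorem complete_result :
    (∀ k : ℕ, 1 ≤ k → (complete (k + 1)).EdgeConnected k ∧
      ∀ (T : Finset {p : Sym2 (Fin (k + 1)) // ¬ p.IsDiag}) (α : ℝ),
        (complete (k + 1)).IsSpanningTree T → (complete (k + 1)).IsThin T α →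
          4 * (k : ℝ) / ((k : ℝ) + 1) ^ 2 ≤ α) ∧
    (∀ C : ℝ, StrongThinTree C → 4 ≤ C) := by
  refine ⟨fun k hk => ⟨complete_edgeConnected k, fun T α hT hα =>
    complete_thin_bound k hk T hT α hα⟩, ?_⟩
  intro C hC
  have key : ∀ k : ℕ, 1 ≤ k → 4 - 8 / ((k : ℝ) + 1) ≤ C := by
    intro k hk
    obtain ⟨T, hT, hthin⟩ := hC k hk (Fin (k + 1)) _ (complete (k + 1)) (by simp; omega)
      (complete_edgeConnected k)
    have h := complete_thin_bound k hk T hT _ hthin
    have hkpos : (0 : ℝ) < k := by exact_mod_cast hk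
    rw [div_le_div_iff₀ (by positivity) hkpos] at h
    rw [sub_le_iff_le_add, ← sub_le_iff_le_add', le_div_iff₀ (by positivity)]
    by_contra hcon
    push Not at hcon
    nlinarith
  by_contra hlt
  push Not at hlt
  obtain ⟨m, hm⟩ := exists_nat_gt (8 / (4 - C))
  have hpos : 0 < 4 - C := by linarith
  have h1 := key (m + 1) (by omega)
  have hm' : 8 / (4 - C) < ((m + 1 : ℕ) : ℝ) + 1 := by
    push_cast
    linarith
  rw [div_lt_iff₀ hpos] at hm'
  have h2 : 8 / (((m + 1 : ℕ) : ℝ) + 1) < 4 - C := by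
    rw [div_lt_iff₀ (by positivity)]
    linarith
  linarith

end Vale.Agent.Lib.P061
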