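import Vale.Agent.Lib.P061.Basic

namespace Vale.Agent.Lib.P061

open Finset

variable {V E : Type}

theorem Multigraph.exists_min_conn [Fintype V] [DecidableEq E] (G : Multigraph V E)
    (H : Finset E) (h : G.Conn H) :
    ∃ F ⊆ H, G.Conn F ∧ ∀ e ∈ F, ¬ G.Conn (F.erase e) := by
  classical
  have hne : (H.powerset.filter (fun F => G.Conn F)).Nonempty :=
    ⟨H, by simp [h]⟩
  obtain ⟨F, hF, hmin⟩ := Finset.exists_min_image _ Finset.card hne
  rw [Finset.mem_filter, Finset.mem_powerset] at hF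
  refine ⟨F, hF.1, hF.2, ?_⟩
  intro e he hc
  have hmem : F.erase e ∈ H.powerset.filter (fun F => G.Conn F) := by
    rw [Finset.mem_filter, Finset.mem_powerset]
    exact ⟨(Finset.erase_subset e F).trans hF.1, hc⟩
  have := hmin _ hmem
  have hlt := Finset.card_erase_lt_of_mem he
  omega

theorem Multigraph.fund_cut [Fintype V] [DecidableEq V] [DecidableEq E] (G : Multigraph V E)
    (F : Finset E) (hconn : G.Conn F) (e : E) (hmin : ¬ G.Conn (F.erase e)) (b : V) :
    ∃ S : Finset V, S.Nonempty ∧ S ≠ Finset.univ ∧ b ∉ S ∧ ∀ g ∈ F, (G.Crosses S g ↔ g = e) := by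
  unfold Multigraph.Conn at hmin
  push Not at hmin
  obtain ⟨S, hne, huniv, hno⟩ := hmin
  obtain ⟨g0, hg0, hcr0⟩ := hconn S hne huniv
  have hg0e : g0 = e := by
    by_contra hh
    exact hno g0 (Finset.mem_erase.mpr ⟨hh, hg0⟩) hcr0
  have key : ∀ g ∈ F, (G.Crosses S g ↔ g = e) := by
    intro g hg
    constructor
    · intro hcr
      by_contra hh
      exact hno g (Finset.mem_erase.mpr ⟨hh, hg⟩) hcr
    · intro hh
      rw [hh, ← hg0e]
      exact hcr0
  by_cases hb : b ∈ S
  · refine ⟨Sᶜ, ?_, ?_, by simpa using hb, ?_⟩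
    · by_contra hh
      rw [Finset.not_nonempty_iff_eq_empty, Finset.compl_eq_empty_iff] at hh
      exact huniv hh
    · intro hh
      rw [Finset.compl_eq_univ_iff] at hh
      exact hne.ne_empty hh
    · intro g hg
      rw [G.crosses_compl]
      exact key g hg
  · exact ⟨S, hne, huniv, hb, key⟩

/-- Balanced edge separator of a minimal connected edge set of bounded degree. -/
theorem Multigraph.separator [Fintype V] [DecidableEq V] [DecidableEq E] (G : Multigraph V E)
    (F : Finset E) (hconn : G.Conn F) (hmin : ∀ e ∈ F, ¬ G.Conn (F.erase e))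
    (hV : 2 ≤ Fintype.card V) (Δ : ℕ)
    (hdeg : ∀ b : V, (F.filter (fun e => b ∈ G.ends e)).card ≤ Δ + 1) :
    ∃ (S : Finset V) (e : E), e ∈ F ∧ S.Nonempty ∧ S ≠ Finset.univ ∧
      (∀ g ∈ F, (G.Crosses S g ↔ g = e)) ∧ 2 * S.card ≤ Fintype.card V ∧
      Fintype.card V ≤ (Δ + 1) * S.card + 1 := by
  classical
  let Good : Finset V → Prop := fun S => S.Nonempty ∧ S ≠ Finset.univ ∧
    (∃ e ∈ F, ∀ g ∈ F, (G.Crosses S g ↔ g = e)) ∧ 2 * S.card ≤ Fintype.card V
  have hcompl : ∀ S : Finset V, S.card + Sᶜ.card = Fintype.card V := fun S => by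
    rw [Finset.card_compl]
    have := Finset.card_le_univ S
    omega
  -- a vertex, and a nonempty family
  obtain ⟨v0⟩ : Nonempty V := by
    rw [← Fintype.card_pos_iff]
    omega
  have hFne : F.Nonempty := by
    have hs : ({v0} : Finset V) ≠ Finset.univ := by
      intro hh
      have := congrArg Finset.card hh
      rw [Finset.card_singleton, Finset.card_univ] at this
      omega
    obtain ⟨e, he, -⟩ := hconn {v0} ⟨v0, by simp⟩ hs
    exact ⟨e, he⟩
  have hfam : (Finset.univ.filter Good).Nonempty := by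
    obtain ⟨e, he⟩ := hFne
    obtain ⟨S, h1, h2, -, h4⟩ := G.fund_cut F hconn e (hmin e he) v0
    by_cases hs : 2 * S.card ≤ Fintype.card V
    · exact ⟨S, by simp only [Finset.mem_filter, Finset.mem_univ, true_and]; exact ⟨h1, h2, ⟨e, he, h4⟩, hs⟩⟩
    · refine ⟨Sᶜ, ?_⟩
      simp only [Finset.mem_filter, Finset.mem_univ, true_and]
      refine ⟨?_, ?_, ⟨e, he, fun g hg => by rw [G.crosses_compl]; exact h4 g hg⟩, ?_⟩
      · by_contra hh
        rw [Finset.not_nonempty_iff_eq_empty, Finset.compl_eq_empty_iff] at hh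
        exact h2 hh
      · intro hh
        rw [Finset.compl_eq_univ_iff] at hh
        exact h1.ne_empty hh
      · have := hcompl S
        omega
  obtain ⟨S, hS, hmax⟩ := Finset.exists_max_image _ Finset.card hfam
  simp only [Finset.mem_filter, Finset.mem_univ, true_and] at hS hmax
  obtain ⟨hSne, hSuniv, ⟨e, he, hcross⟩, hShalf⟩ := hS
  refine ⟨S, e, he, hSne, hSuniv, hcross, hShalf, ?_⟩
  obtain ⟨a, b, hab, ha, hb⟩ := (hcross e he).mpr rfl
  -- edges of F at b other than e
  let B : Finset E := (F.filter (fun f => b ∈ G.ends f)).erase e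
  have hBcard : B.card ≤ Δ := by
    have hmem : e ∈ F.filter (fun f => b ∈ G.ends f) := by
      rw [Finset.mem_filter]
      exact ⟨he, by rw [hab]; simp⟩
    have := Finset.card_erase_of_mem hmem
    have h2 := hdeg b
    simp only [B]
    omega
  have hex : ∀ f : E, ∃ Sf : Finset V, f ∈ F → (Sf.Nonempty ∧ Sf ≠ Finset.univ ∧ b ∉ Sf ∧
      ∀ g ∈ F, (G.Crosses Sf g ↔ g = f)) := by
    intro f
    by_cases hf : f ∈ F
    · obtain ⟨Sf, h⟩ := G.fund_cut F hconn f (hmin f hf) b
      exact ⟨Sf, fun _ => h⟩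
    · exact ⟨∅, fun h => absurd h hf⟩
  choose Sf hSf using hex
  have hBF : ∀ f ∈ B, f ∈ F ∧ f ≠ e ∧ b ∈ G.ends f := by
    intro f hf
    simp only [B, Finset.mem_erase, Finset.mem_filter] at hf
    exact ⟨hf.2.1, hf.1, hf.2.2⟩
  -- disjointness
  have hdisj : ∀ f ∈ B, Disjoint S (Sf f) := by
    intro f hf
    obtain ⟨hfF, hfe, hfb⟩ := hBF f hf
    obtain ⟨-, -, hbf, hcf⟩ := hSf f hfF
    rw [Finset.disjoint_iff_inter_eq_empty]
    by_contra hne
    have hWne : (S ∩ Sf f).Nonempty := Finset.nonempty_iff_ne_empty.mpr hne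
    have hWuniv : S ∩ Sf f ≠ Finset.univ := by
      intro hh
      have : b ∈ S ∩ Sf f := hh ▸ Finset.mem_univ b
      exact hb (Finset.mem_inter.mp this).1
    obtain ⟨g, hg, x, y, hxy, hx, hy⟩ := hconn _ hWne hWuniv
    rw [Finset.mem_inter] at hx
    by_cases hyS : y ∈ S
    · have hyf : y ∉ Sf f := fun hh => hy (Finset.mem_inter.mpr ⟨hyS, hh⟩)
      have hgf : g = f := (hcf g hg).mp ⟨x, y, hxy, hx.2, hyf⟩
      rw [← hgf, hxy] at hfb
      rcases Sym2.mem_iff.mp hfb with h | h
      · exact hb (h ▸ hx.1)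
      · exact hb (h ▸ hyS)
    · have hge : g = e := (hcross g hg).mp ⟨x, y, hxy, hx.1, hyS⟩
      rw [hge, hab] at hxy
      rcases Sym2.eq_iff.mp hxy with ⟨h1, h2⟩ | ⟨h1, h2⟩
      · have : G.Crosses (Sf f) e := ⟨a, b, hab, h1 ▸ hx.2, hbf⟩
        exact hfe ((hcf e he).mp this).symm
      · exact hb (h2 ▸ hx.1)
  -- sizes
  have hsize : ∀ f ∈ B, (Sf f).card ≤ S.card := by
    intro f hf
    obtain ⟨hfF, hfe, hfb⟩ := hBF f hf
    obtain ⟨h1, h2, hbf, hcf⟩ := hSf f hfF
    by_cases hs : 2 * (Sf f).card ≤ Fintype.card V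
    · exact hmax (Sf f) ⟨h1, h2, ⟨f, hfF, hcf⟩, hs⟩
    · exfalso
      have hgood : Good (Sf f)ᶜ := by
        refine ⟨?_, ?_, ⟨f, hfF, fun g hg => by rw [G.crosses_compl]; exact hcf g hg⟩, ?_⟩
        · exact ⟨b, by simpa using hbf⟩
        · intro hh
          rw [Finset.compl_eq_univ_iff] at hh
          exact h1.ne_empty hh
        · have := hcompl (Sf f)
          omega
      have hle := hmax _ hgood
      have hsub : insert b S ⊆ (Sf f)ᶜ := by
        intro x hx
        rw [Finset.mem_insert] at hx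
        rw [Finset.mem_compl]
        rcases hx with rfl | hx
        · exact hbf
        · exact fun hh => (Finset.disjoint_left.mp (hdisj f hf)) hx hh
      have h3 := Finset.card_le_card hsub
      rw [Finset.card_insert_of_notMem hb] at h3
      omega
  -- covering
  have hcover : insert b S ∪ B.biUnion Sf = Finset.univ := by
    by_contra hU
    have hUne : (insert b S ∪ B.biUnion Sf).Nonempty := ⟨b, by simp⟩
    obtain ⟨g, hg, x, y, hxy, hx, hy⟩ := hconn _ hUne hU
    have hyb : y ≠ b := fun hh => hy (by simp [hh])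
    have hyS : y ∉ S := fun hh => hy (by simp [hh])
    have hyB : ∀ f ∈ B, y ∉ Sf f := fun f hf hh =>
      hy (Finset.mem_union_right _ (Finset.mem_biUnion.mpr ⟨f, hf, hh⟩))
    rw [Finset.mem_union, Finset.mem_insert, Finset.mem_biUnion] at hx
    rcases hx with (hx | hx) | ⟨f, hf, hx⟩
    · -- x = b
      subst hx
      by_cases hge : g = e
      · rw [hge, hab] at hxy
        rcases Sym2.eq_iff.mp hxy with ⟨h1, h2⟩ | ⟨h1, h2⟩
        · exact hb (h1 ▸ ha)
        · exact hyS (h1 ▸ ha)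
      · have hgB : g ∈ B := by
          simp only [B, Finset.mem_erase, Finset.mem_filter]
          exact ⟨hge, hg, by rw [hxy]; simp⟩
        obtain ⟨-, -, hbf, hcf⟩ := hSf g hg
        obtain ⟨u, v, huv, hu, hv⟩ := (hcf g hg).mpr rfl
        rw [hxy] at huv
        rcases Sym2.eq_iff.mp huv with ⟨h1, h2⟩ | ⟨h1, h2⟩
        · exact hbf (h1 ▸ hu)
        · exact hyB g hgB (h2 ▸ hu)
    · -- x ∈ S
      have hge : g = e := (hcross g hg).mp ⟨x, y, hxy, hx, hyS⟩
      rw [hge, hab] at hxy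
      rcases Sym2.eq_iff.mp hxy with ⟨h1, h2⟩ | ⟨h1, h2⟩
      · exact hyb h2.symm
      · exact hb (h2 ▸ hx)
    · -- x ∈ Sf f
      obtain ⟨hfF, hfe, hfb⟩ := hBF f hf
      obtain ⟨-, -, hbf, hcf⟩ := hSf f hfF
      have hgf : g = f := (hcf g hg).mp ⟨x, y, hxy, hx, hyB f hf⟩
      rw [← hgf, hxy] at hfb
      rcases Sym2.mem_iff.mp hfb with h | h
      · exact hbf (h ▸ hx)
      · exact hyb h.symm
  have hcount : Fintype.card V ≤ (S.card + 1) + B.card * S.card := by
    rw [← Finset.card_univ, ← hcover]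
    refine (Finset.card_union_le _ _).trans ?_
    apply Nat.add_le_add
    · exact Finset.card_insert_le _ _
    · refine Finset.card_biUnion_le.trans ?_
      calc ∑ f ∈ B, (Sf f).card ≤ ∑ _f ∈ B, S.card := Finset.sum_le_sum hsize
        _ = B.card * S.card := by simp
  have : B.card * S.card ≤ Δ * S.card := Nat.mul_le_mul_right _ hBcard
  nlinarith

end Vale.Agent.Lib.P061
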